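import Vale.Agent.P032.S5.H843.PairD

/-!
# P032: unit pairs, strong form of the two-pair points

`DV U x` : near `x` four of the sets suffice, and no three of these four, an arc of the unit circle
about `x` consists of common boundary points of two of them near which these two suffice, and
another arc consists of common boundary points of the other two.
-/

open Set Filter Topology Metric

noncomputable section

namespace Vale.Agent.P032.S5.H138

open Vale.Agent.P032.Six Vale.Agent.P032.S5.H926 Vale.Agent.P032.S5.H843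

/-- near `x` four of the sets suffice, and no three of these four, and there are an arc of the unit
circle about `x` of common boundary points of two of them near which these two suffice, and an arc
with the same property for the other two -/
def DV {E : Type*} [PseudoMetricSpace E] (U : Fin 6 → Set E) (x : E) : Prop :=
  ∃ a b c d : Fin 6, [a, b, c, d].Nodup ∧
    x ∉ closure ((⋃ j, U j) \ ⋃ i ∈ ({a, b, c, d} : Set (Fin 6)), U i) ∧
    (∀ s ⊂ ({a, b, c, d} : Set (Fin 6)), x ∈ closure ((⋃ j, U j) \ ⋃ i ∈ s, U i)) ∧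
    ∃ p q, dist p x = 1 ∧ dist q x = 1 ∧ ∃ r > 0,
      (∀ y, dist y x = 1 → dist y p < r → y ∈ closure (U a) ∧ y ∈ closure (U b) ∧
        y ∉ closure ((⋃ j, U j) \ ⋃ i ∈ ({a, b} : Set (Fin 6)), U i)) ∧
      ∀ y, dist y x = 1 → dist y q < r → y ∈ closure (U c) ∧ y ∈ closure (U d) ∧
        y ∉ closure ((⋃ j, U j) \ ⋃ i ∈ ({c, d} : Set (Fin 6)), U i)

theorem arc_radius {U : Fin 6 → Set ℂ} {T : ℂ → Set (Fin 6)} (h : Irr U T) {z p : ℂ} {a b : Fin 6}
    (hp : ∀ᶠ q in 𝓝[sphere z 1] p, T q = {a, b}) :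
    ∃ r > 0, ∀ y, dist y z = 1 → dist y p < r → y ∈ closure (U a) ∧ y ∈ closure (U b) ∧
      y ∉ closure ((⋃ j, U j) \ ⋃ i ∈ ({a, b} : Set (Fin 6)), U i) := by
  rw [eventually_nhdsWithin_iff, Metric.eventually_nhds_iff] at hp
  obtain ⟨r, hr, hpr⟩ := hp
  refine ⟨r, hr, fun y hy hyp => ?_⟩
  have h1 : T y = {a, b} := hpr hyp (mem_sphere.2 hy)
  refine ⟨?_, ?_, ?_⟩
  · exact h.sub y (by rw [h1]; simp)
  · exact h.sub y (by rw [h1]; simp)
  · rw [← h1]; exact Irr_suff h y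

theorem ncard_DPt {T : ℂ → Set (Fin 6)} {z : ℂ} {a b c d : Fin 6} (hz : DPt T z a b c d) :
    4 ≤ (T z).ncard := by
  rw [hz.pal, Set.ncard_eq_toFinset_card']
  have h7 : (({a, b, c, d} : Set (Fin 6)).toFinset) = ({a, b, c, d} : Finset (Fin 6)) := by
    ext i; simp
  rw [h7]
  rw [Finset.card_insert_of_notMem (by simp [hz.ab, hz.ac, hz.ad]),
    Finset.card_insert_of_notMem (by simp [hz.bc, hz.bd]),
    Finset.card_insert_of_notMem (by simp [hz.cd]), Finset.card_singleton]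

theorem DV_of_DPt {U : Fin 6 → Set ℂ} {T : ℂ → Set (Fin 6)} (h : Irr U T) (hmin : Mn U T)
    (hd : Dense (⋃ i, U i)) {z : ℂ} {a b c d : Fin 6} (hz : DPt T z a b c d) : DV U z := by
  obtain ⟨p, hp1, hp2⟩ := hz.arc1
  obtain ⟨q, hq1, hq2⟩ := hz.arc2
  obtain ⟨r, hr, h1⟩ := arc_radius h hp2
  obtain ⟨r', hr', h2⟩ := arc_radius h hq2
  refine ⟨a, b, c, d, ?_, ?_, ?_, p, q, hp1, hq1, min r r', lt_min hr hr', ?_, ?_⟩
  · simp [hz.ab, hz.ac, hz.ad, hz.bc, hz.bd, hz.cd]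
  · rw [← hz.pal]; exact Irr_suff h z
  · intro s hs
    rw [← hz.pal] at hs
    by_contra hcon
    exact hmin z (ncard_DPt hz) s hs.subset hs.ne (suf_of_notMem hd hcon)
  · exact fun y hy hyp => h1 y hy (hyp.trans_le (min_le_left _ _))
  · exact fun y hy hyp => h2 y hy (hyp.trans_le (min_le_right _ _))

/-- **The frame.** -/
theorem exists_T_pairV {U : Fin 6 → Set ℂ}
    (hU : ∀ i, Maximal (fun W : Set ℂ => IsOpen W ∧ ∀ x ∈ W, ∀ y ∈ W, dist x y ≠ 1) (U i))
    (hd : Dense (⋃ i, U i)) {m : ℕ} (hm : 4 ≤ m) (h4 : ∀ z, z ∉ XU U m)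
    (hp : ∀ z ∈ XU U 3, z ∈ XU U 4 ∨ z ∈ closure {x | DV U x} → ∀ v ∈ XU U 3, dist z v ≠ 1) :
    ∃ T, Irr U T ∧ Mn U T ∧ (∀ z, (T z).ncard ≤ m) ∧
      ∀ z v, dist z v = 1 → 4 ≤ (T v).ncard →
        (5 ≤ (T z).ncard ∨ ∃ a b c d, DPt T z a b c d) → False := by
  classical
  set K : Set ℂ := XU U 3 ∩ (XU U 4 ∪ closure {x | DV U x}) with hK
  have hKc : IsClosed K := (isClosed_XU U 3).inter ((isClosed_XU U 4).union isClosed_closure)
  obtain ⟨N₅, V, hN₅, hV, hKN, hXV, hfree⟩ := exists_open_free₂ hKc (isClosed_XU U 3)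
    (fun z hz v hv => hp z hz.1 hz.2 v hv)
  set V' : Set ℂ := V ∩ (closure {x | DV U x} ∩ N₅ᶜ)ᶜ with hV'
  have hV'o : IsOpen V' := hV.inter (isClosed_closure.inter hN₅.isClosed_compl).isOpen_compl
  have hXV' : XU U 3 ⊆ V' := fun x hx => ⟨hXV hx, fun h1 => h1.2 (hKN ⟨hx, Or.inr h1.1⟩)⟩
  have hX4 : XU U 4 ⊆ N₅ := fun x hx => hKN ⟨XU_anti U (by norm_num) hx, Or.inl hx⟩
  set N : ℂ → ℕ := fun x => if x ∈ V' then (if x ∈ N₅ then m else 4) else 3 with hNdef
  have hNs : ∀ x, ∀ᶠ w in 𝓝 x, N x ≤ N w := by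
    intro x
    by_cases hx : x ∈ V'
    · by_cases hx5 : x ∈ N₅
      · filter_upwards [hV'o.mem_nhds hx, hN₅.mem_nhds hx5] with w hw hw5
        simp only [hNdef, if_pos hx, if_pos hx5, if_pos hw, if_pos hw5, le_refl]
      · filter_upwards [hV'o.mem_nhds hx] with w hw
        simp only [hNdef, if_pos hx, if_neg hx5, if_pos hw]
        split_ifs <;> omega
    · filter_upwards with w
      simp only [hNdef, if_neg hx]
      split_ifs <;> omega
  have hN3 : ∀ x, 3 ≤ N x := by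
    intro x
    simp only [hNdef]
    split_ifs <;> omega
  have hex : ∀ n z, z ∉ XU U n → ∃ s : Set (Fin 6), s.ncard ≤ n ∧
      ∀ᶠ w in 𝓝 z, ∃ i ∈ s, w ∈ U i ∨ (w ∈ XX U ∧ i ∈ Pal U w) := by
    intro n z hz
    simp only [XU, mem_ofPred_eq] at hz
    push Not at hz
    obtain ⟨s, hs, hsz⟩ := hz
    exact ⟨s, hs, suf_of_notMem hd hsz⟩
  obtain ⟨T, hT, hmin, hle⟩ := exists_frameN (Mx_of_maximal hU hd)
    (fun i x hx => (mem_iff_of_maximal (hU i) x).2 hx) hNs hN3 (fun z _ => by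
      by_cases hz : z ∈ V'
      · by_cases hz5 : z ∈ N₅
        · obtain ⟨s, h1, h2⟩ := hex m z (h4 z)
          exact ⟨s, by simpa only [hNdef, if_pos hz, if_pos hz5] using h1, h2⟩
        · obtain ⟨s, h1, h2⟩ := hex 4 z fun h => hz5 (hX4 h)
          exact ⟨s, by simpa only [hNdef, if_pos hz, if_neg hz5] using h1, h2⟩
      · obtain ⟨s, h1, h2⟩ := hex 3 z fun h => hz (hXV' h)
        exact ⟨s, by simpa only [hNdef, if_neg hz] using h1, h2⟩)
  have hV4 : ∀ v, 4 ≤ (T v).ncard → v ∈ V' := by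
    intro v hv
    by_contra hcon
    have h1 := hle v
    simp only [hNdef, if_neg hcon] at h1
    omega
  refine ⟨T, hT, hmin, fun z => (hle z).trans ?_, fun z v hzv hv hz => ?_⟩
  · simp only [hNdef]
    split_ifs <;> omega
  · refine hfree z ?_ v (hV4 v hv).1 hzv
    rcases hz with h5 | ⟨a, b, c, d, hz⟩
    · by_contra hcon
      have h1 := hle z
      simp only [hNdef, if_neg hcon] at h1
      split_ifs at h1 <;> omega
    · have h6 : z ∈ V' := hV4 z (ncard_DPt hz)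
      by_contra hcon
      exact h6.2 ⟨subset_closure (DV_of_DPt hT hmin hd hz), hcon⟩

/-- **The frame, disc form**: no point of the disc with no three sufficient sets is a limit of
two-pair points. -/
theorem exists_T_discV {U : Fin 6 → Set ℂ}
    (hU : ∀ i, Maximal (fun W : Set ℂ => IsOpen W ∧ ∀ x ∈ W, ∀ y ∈ W, dist x y ≠ 1) (U i))
    (hd : Dense (⋃ i, U i)) {D : Set ℂ} (hD : IsClosed D)
    (h4 : ∀ z ∈ D, z ∉ XU U 4)
    (h3 : ∀ z ∈ D, z ∈ XU U 3 → z ∉ closure {x | DV U x}) :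
    ∃ T, Irr U T ∧ Mn U T ∧ (∀ z ∈ D, (T z).ncard ≤ 4) ∧
      ∀ z ∈ D, ¬ ∃ a b c d, DPt T z a b c d := by
  classical
  -- `F` : the points of `D` which are limits of two-pair points
  set F : Set ℂ := D ∩ closure {x | DV U x} with hF
  have hFc : IsClosed F := hD.inter isClosed_closure
  have hF3 : ∀ z ∈ F, z ∉ XU U 3 := fun z hz h => h3 z hz.1 h hz.2
  set N : ℂ → ℕ := fun x => if x ∈ F then 3 else if x ∈ D then 4 else 6 with hNdef
  have hNs : ∀ x, ∀ᶠ w in 𝓝 x, N x ≤ N w := by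
    intro x
    by_cases hx : x ∈ F
    · filter_upwards with w
      simp only [hNdef, if_pos hx]
      split_ifs <;> omega
    · by_cases hxD : x ∈ D
      · filter_upwards [hFc.isOpen_compl.mem_nhds hx] with w hw
        have hw' : w ∉ F := hw
        simp only [hNdef, if_neg hx, if_neg hw', if_pos hxD]
        split_ifs <;> omega
      · filter_upwards [hFc.isOpen_compl.mem_nhds hx, hD.isOpen_compl.mem_nhds hxD] with w hw hw2
        have hw' : w ∉ F := hw
        have hw2' : w ∉ D := hw2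
        simp only [hNdef, if_neg hx, if_neg hw', if_neg hxD, if_neg hw2', le_refl]
  have hN3 : ∀ x, 3 ≤ N x := by
    intro x
    simp only [hNdef]
    split_ifs <;> omega
  have hex : ∀ n z, z ∉ XU U n → ∃ s : Set (Fin 6), s.ncard ≤ n ∧
      ∀ᶠ w in 𝓝 z, ∃ i ∈ s, w ∈ U i ∨ (w ∈ XX U ∧ i ∈ Pal U w) := by
    intro n z hz
    simp only [XU, mem_ofPred_eq] at hz
    push Not at hz
    obtain ⟨s, hs, hsz⟩ := hz
    exact ⟨s, hs, suf_of_notMem hd hsz⟩
  obtain ⟨T, hT, hmin, hle⟩ := exists_frameN (Mx_of_maximal hU hd)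
    (fun i x hx => (mem_iff_of_maximal (hU i) x).2 hx) hNs hN3 (fun z _ => by
      by_cases hz : z ∈ F
      · obtain ⟨s, h1, h2⟩ := hex 3 z (hF3 z hz)
        exact ⟨s, by simpa only [hNdef, if_pos hz] using h1, h2⟩
      · by_cases hzD : z ∈ D
        · obtain ⟨s, h1, h2⟩ := hex 4 z (h4 z hzD)
          exact ⟨s, by simpa only [hNdef, if_neg hz, if_pos hzD] using h1, h2⟩
        · refine ⟨univ, ?_, ?_⟩
          · simp only [hNdef, if_neg hz, if_neg hzD]
            exact (Set.ncard_le_card _).trans (by simp)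
          · refine suf_of_notMem hd ?_
            have : (⋃ j, U j) \ ⋃ i ∈ (univ : Set (Fin 6)), U i = ∅ := by
              rw [sdiff_eq_empty]
              exact fun x hx => by
                obtain ⟨j, hj⟩ := mem_iUnion.1 hx
                exact mem_iUnion₂.2 ⟨j, mem_univ j, hj⟩
            rw [this, closure_empty]
            exact notMem_empty z)
  refine ⟨T, hT, hmin, fun z hz => ?_, fun z hz => ?_⟩
  · have h1 := hle z
    simp only [hNdef, if_pos hz] at h1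
    split_ifs at h1 <;> omega
  · rintro ⟨a, b, c, d, hDz⟩
    have h1 := hle z
    have h5 : z ∈ F := ⟨hz, subset_closure (DV_of_DPt hT hmin hd hDz)⟩
    simp only [hNdef, if_pos h5] at h1
    have := ncard_DPt hDz
    omega

section plane

variable {U : Fin 6 → Set (EuclideanSpace ℝ (Fin 2))}

/-- the isometry -/
abbrev φ : ℂ ≃ₗᵢ[ℝ] EuclideanSpace ℝ (Fin 2) := Complex.orthonormalBasisOneI.repr

theorem hcl (S : Set (EuclideanSpace ℝ (Fin 2))) : closure (φ ⁻¹' S) = φ ⁻¹' closure S :=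
  (φ.toHomeomorph.preimage_closure S).symm

theorem hdf (s : Set (Fin 6)) : ((⋃ j, φ ⁻¹' U j) \ ⋃ i ∈ s, φ ⁻¹' U i) =
    φ ⁻¹' ((⋃ j, U j) \ ⋃ i ∈ s, U i) := by
  rw [preimage_sdiff, preimage_iUnion, preimage_iUnion₂]

theorem hXU (n : ℕ) (z : ℂ) (hz : z ∈ XU (fun i => φ ⁻¹' U i) n) : φ z ∈ XU U n := by
  intro s hs
  have h1 := hz s hs
  rw [hdf, hcl] at h1
  exact h1

theorem hDV (x : ℂ) (hx : DV (fun i => φ ⁻¹' U i) x) : DV U (φ x) := by
  obtain ⟨a, b, c, d, nd, hx, hcx, p, q, hp, hq, r, hr, h1, h2⟩ := hx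
  rw [hdf, hcl] at hx
  refine ⟨a, b, c, d, nd, hx, fun s hs => ?_, φ p, φ q, by rw [φ.dist_map]; exact hp,
    by rw [φ.dist_map]; exact hq, r, hr, fun y hy hyp => ?_, fun y hy hyp => ?_⟩
  · have := hcx s hs
    rw [hdf, hcl] at this
    exact this
  · obtain ⟨y', rfl⟩ := φ.surjective y
    rw [φ.dist_map] at hy hyp
    have := h1 y' hy hyp
    rw [hdf, hcl, hcl, hcl] at this
    exact this
  · obtain ⟨y', rfl⟩ := φ.surjective y
    rw [φ.dist_map] at hy hyp
    have := h2 y' hy hyp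
    rw [hdf, hcl, hcl, hcl] at this
    exact this

theorem hcDV (z : ℂ) (hz : z ∈ closure {x | DV (fun i => φ ⁻¹' U i) x}) :
    φ z ∈ closure {x | DV U x} := by
  have h1 : z ∈ closure (φ ⁻¹' {x | DV U x}) := closure_mono (fun x hx => hDV x hx) hz
  rw [hcl] at h1
  exact h1

/-- **Statement in the plane, unit pairs.** -/
theorem exists_pairV_of {m : ℕ} (hm : 4 ≤ m)
    (hU : ∀ i, Maximal (fun W : Set (EuclideanSpace ℝ (Fin 2)) =>
      IsOpen W ∧ ∀ x ∈ W, ∀ y ∈ W, dist x y ≠ 1) (U i))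
    (hd : Dense (⋃ i, U i))
    (top : ∀ (V : Fin 6 → Set ℂ) (T : ℂ → Set (Fin 6)), Irr V T → Mn V T →
      (∀ z, (T z).ncard ≤ m) →
      (∀ z v, dist z v = 1 → 4 ≤ (T v).ncard →
        (5 ≤ (T z).ncard ∨ ∃ a b c d, DPt T z a b c d) → False) → False) :
    (∃ z, z ∈ XU U m) ∨
    ∃ z z', dist z z' = 1 ∧ z ∈ XU U 3 ∧ z' ∈ XU U 3 ∧
      (z ∈ XU U 4 ∨ z ∈ closure {x | DV U x}) := by
  by_contra hcon
  rw [not_or] at hcon
  obtain ⟨T, h1, h2, h3, h4⟩ := exists_T_pairV (U := fun i => φ ⁻¹' U i)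
    (fun i => maximal_preimage (hU i) φ) (by
      rw [← preimage_iUnion]
      exact hd.preimage φ.toHomeomorph.isOpenMap) hm
    (fun z hz => hcon.1 ⟨φ z, hXU m z hz⟩)
    (fun z hz hz' v hv hzv => hcon.2 ⟨φ z, φ v, by rw [φ.dist_map]; exact hzv, hXU 3 z hz,
      hXU 3 v hv, hz'.imp (hXU 4 z) (hcDV z)⟩)
  exact top _ T h1 h2 h3 h4

/-- **Statement in the plane, disc form**: the point itself is essential. -/
theorem exists_discV_of {R : ℝ}
    (hU : ∀ i, Maximal (fun W : Set (EuclideanSpace ℝ (Fin 2)) =>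
      IsOpen W ∧ ∀ x ∈ W, ∀ y ∈ W, dist x y ≠ 1) (U i))
    (hd : Dense (⋃ i, U i))
    (top : ∀ (V : Fin 6 → Set ℂ) (T : ℂ → Set (Fin 6)) (c : ℂ), Irr V T → Mn V T →
      (∀ z, dist z c ≤ R → (T z).ncard ≤ 4) →
      ∃ z, dist z c ≤ R ∧ ∃ a b c' d, DPt T z a b c' d) (c : EuclideanSpace ℝ (Fin 2)) :
    ∃ z, dist z c ≤ R ∧ z ∈ XU U 3 ∧ (z ∈ XU U 4 ∨ z ∈ closure {x | DV U x}) := by
  by_contra hcon
  push Not at hcon
  have hφ : ∀ z, dist z (φ.symm c) ≤ R → dist (φ z) c ≤ R := by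
    intro z hz
    rw [← φ.apply_symm_apply c, φ.dist_map]
    exact hz
  obtain ⟨T, hT, hmin, hle, hnoD⟩ := exists_T_discV (U := fun i => φ ⁻¹' U i)
    (fun i => maximal_preimage (hU i) φ) (by
      rw [← preimage_iUnion]
      exact hd.preimage φ.toHomeomorph.isOpenMap)
    (D := closedBall (φ.symm c) R) isClosed_closedBall
    (fun z hz h => (hcon (φ z) (hφ z hz) (XU_anti U (by norm_num) (hXU 4 z h))).1 (hXU 4 z h))
    (fun z hz h h' => (hcon (φ z) (hφ z hz) (hXU 3 z h)).2 (hcDV z h'))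
  obtain ⟨z, hz, hD⟩ := top _ T (φ.symm c) hT hmin fun z hz => hle z hz
  exact hnoD z hz hD

end plane

end Vale.Agent.P032.S5.H138
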